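import Mathlib

open Finset

namespace Vale.Agent.P134

/-- The Laplacian as the sum of the iterated second partial derivatives. -/
noncomputable def coordLaplacian {n : ℕ} (u : (Fin n → ℝ) → ℝ) (x : Fin n → ℝ) : ℝ :=
  ∑ i, deriv (deriv (fun t => u (Function.update x i t))) (x i)

variable {m : ℕ}

/-- The part of the Laplacian in the first `m` variables. -/
noncomputable def partLap (a : (Fin (m + 1) → ℝ) → ℝ) (x : Fin (m + 1) → ℝ) : ℝ :=
  ∑ i ∈ univ.erase (Fin.last m), deriv (deriv (fun t => a (Function.update x i t))) (x i)

lemma lap_split (a : (Fin (m + 1) → ℝ) → ℝ) (b : ℝ → ℝ)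
    (ha : ∀ x t, a (Function.update x (Fin.last m) t) = a x) (x : Fin (m + 1) → ℝ) :
    coordLaplacian (fun x => a x + b (x (Fin.last m))) x
      = partLap a x + deriv (deriv b) (x (Fin.last m)) := by
  unfold coordLaplacian partLap
  rw [← Finset.add_sum_erase univ _ (mem_univ (Fin.last m)), add_comm]
  congr 1
  · apply Finset.sum_congr rfl
    intro i hi
    have hne : Fin.last m ≠ i := (Finset.ne_of_mem_erase hi).symm
    have h1 : (fun t => a (Function.update x i t) + b (Function.update x i t (Fin.last m)))
        = fun t => a (Function.update x i t) + b (x (Fin.last m)) := by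
      funext t
      rw [Function.update_of_ne hne]
    simp only [h1]
    have h2 : deriv (fun t => a (Function.update x i t) + b (x (Fin.last m)))
        = deriv (fun t => a (Function.update x i t)) := by
      funext t
      exact deriv_add_const _
    rw [h2]
  · have h1 : (fun t => a (Function.update x (Fin.last m) t)
        + b (Function.update x (Fin.last m) t (Fin.last m))) = fun t => a x + b t := by
      funext t
      rw [ha, Function.update_self]
    simp only [h1]
    have h2 : deriv (fun t => a x + b t) = deriv b := by
      funext t
      exact deriv_const_add _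
    rw [h2]

lemma partLap_update (a : (Fin (m + 1) → ℝ) → ℝ)
    (ha : ∀ x t, a (Function.update x (Fin.last m) t) = a x) (x : Fin (m + 1) → ℝ) (s : ℝ) :
    partLap a (Function.update x (Fin.last m) s) = partLap a x := by
  unfold partLap
  apply Finset.sum_congr rfl
  intro i hi
  have hne : i ≠ Fin.last m := Finset.ne_of_mem_erase hi
  have h1 : (fun t => a (Function.update (Function.update x (Fin.last m) s) i t))
      = fun t => a (Function.update x i t) := by
    funext t
    rw [Function.update_comm hne.symm, ha]
  rw [h1, Function.update_of_ne hne]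

/-- Solutions of the Allen-Cahn equation of separated form `a(x') + b(x_n)` with `b` strictly
increasing are one-dimensional, in every dimension. -/
theorem sum_separated (a : (Fin (m + 1) → ℝ) → ℝ) (b : ℝ → ℝ)
    (ha : ∀ x t, a (Function.update x (Fin.last m) t) = a x) (hb : StrictMono b)
    (hsol : ∀ x, coordLaplacian (fun x => a x + b (x (Fin.last m))) x
      = (a x + b (x (Fin.last m))) ^ 3 - (a x + b (x (Fin.last m)))) (x y : Fin (m + 1) → ℝ) :
    a x = a y := by
  have key : ∀ t : ℝ, partLap a x - partLap a y
      = (a x - a y) * (3 * b t ^ 2 + 3 * (a x + a y) * b t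
          + (a x ^ 2 + a x * a y + a y ^ 2 - 1)) := by
    intro t
    have h1 := hsol (Function.update x (Fin.last m) t)
    have h2 := hsol (Function.update y (Fin.last m) t)
    rw [lap_split a b ha, partLap_update a ha, ha] at h1 h2
    simp only [Function.update_self] at h1 h2
    have h3 : partLap a x - partLap a y = ((a x + b t) ^ 3 - (a x + b t))
        - ((a y + b t) ^ 3 - (a y + b t)) := by
      linarith
    rw [h3]
    ring
  by_contra hne
  have hne' : a x - a y ≠ 0 := sub_ne_zero.mpr hne
  have h0 := key 0
  have h1 := key 1
  have h2 := key 2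
  set p := b 0 with hp
  set q := b 1 with hq
  set r := b 2 with hr
  have hpq : p < q := hb (by norm_num)
  have hqr : q < r := hb (by norm_num)
  have e1 : 3 * p ^ 2 + 3 * (a x + a y) * p = 3 * q ^ 2 + 3 * (a x + a y) * q := by
    have := mul_left_cancel₀ hne' (h0.symm.trans h1)
    linarith
  have e2 : 3 * q ^ 2 + 3 * (a x + a y) * q = 3 * r ^ 2 + 3 * (a x + a y) * r := by
    have := mul_left_cancel₀ hne' (h1.symm.trans h2)
    linarith
  have f1 : (q - p) * (p + q + (a x + a y)) = 0 := by linarith
  have f2 : (r - q) * (q + r + (a x + a y)) = 0 := by linarith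
  have g1 : p + q + (a x + a y) = 0 := (mul_eq_zero.mp f1).resolve_left (by linarith)
  have g2 : q + r + (a x + a y) = 0 := (mul_eq_zero.mp f2).resolve_left (by linarith)
  linarith

lemma lap_split_mul (a : (Fin (m + 1) → ℝ) → ℝ) (b : ℝ → ℝ)
    (ha : ∀ x t, a (Function.update x (Fin.last m) t) = a x) (x : Fin (m + 1) → ℝ) :
    coordLaplacian (fun x => a x * b (x (Fin.last m))) x
      = partLap a x * b (x (Fin.last m)) + a x * deriv (deriv b) (x (Fin.last m)) := by
  unfold coordLaplacian partLap
  rw [← Finset.add_sum_erase univ _ (mem_univ (Fin.last m)), add_comm, Finset.sum_mul]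
  congr 1
  · apply Finset.sum_congr rfl
    intro i hi
    have hne : Fin.last m ≠ i := (Finset.ne_of_mem_erase hi).symm
    have h1 : (fun t => a (Function.update x i t) * b (Function.update x i t (Fin.last m)))
        = fun t => a (Function.update x i t) * b (x (Fin.last m)) := by
      funext t
      rw [Function.update_of_ne hne]
    simp only [h1]
    have h2 : deriv (fun t => a (Function.update x i t) * b (x (Fin.last m)))
        = fun s => deriv (fun t => a (Function.update x i t)) s * b (x (Fin.last m)) := by
      funext t
      exact deriv_mul_const_field _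
    rw [h2]
    exact deriv_mul_const_field _
  · have h1 : (fun t => a (Function.update x (Fin.last m) t)
        * b (Function.update x (Fin.last m) t (Fin.last m))) = fun t => a x * b t := by
      funext t
      rw [ha, Function.update_self]
    simp only [h1]
    have h2 : deriv (fun t => a x * b t) = fun s => a x * deriv b s := by
      funext t
      exact deriv_const_mul_field _
    rw [h2]
    exact deriv_const_mul_field _

/-- Positive product solutions `a(x') b(x_n)` with `b` strictly increasing are one-dimensional. -/
theorem product_separated (a : (Fin (m + 1) → ℝ) → ℝ) (b : ℝ → ℝ)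
    (ha : ∀ x t, a (Function.update x (Fin.last m) t) = a x) (hb : StrictMono b)
    (hpos : ∀ x, 0 < a x)
    (hsol : ∀ x, coordLaplacian (fun x => a x * b (x (Fin.last m))) x
      = (a x * b (x (Fin.last m))) ^ 3 - (a x * b (x (Fin.last m)))) (x y : Fin (m + 1) → ℝ) :
    a x = a y := by
  set A := a x with hA
  set B := a y with hB
  set K := B * partLap a x - A * partLap a y with hK
  have key : ∀ t : ℝ, b t * (K - A * B * (A ^ 2 - B ^ 2) * b t ^ 2) = 0 := by
    intro t
    have h1 := hsol (Function.update x (Fin.last m) t)
    have h2 := hsol (Function.update y (Fin.last m) t)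
    rw [lap_split_mul a b ha, partLap_update a ha, ha] at h1 h2
    simp only [Function.update_self] at h1 h2
    rw [← hA] at h1
    rw [← hB] at h2
    have h3 : B * (partLap a x * b t + A * deriv (deriv b) t) - A * (partLap a y * b t + B * deriv (deriv b) t)
        = B * ((A * b t) ^ 3 - A * b t) - A * ((B * b t) ^ 3 - B * b t) := by
      rw [h1, h2]
    rw [hK]
    linear_combination h3
  have hA0 := hpos x
  have hB0 := hpos y
  have hsq : A ^ 2 = B ^ 2 := by
    by_contra hne
    set C := A * B * (A ^ 2 - B ^ 2) with hC
    have hC0 : C ≠ 0 := mul_ne_zero (mul_pos hA0 hB0).ne' (sub_ne_zero.mpr hne)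
    set c := K / C with hc
    have hcK : K = C * c := by
      rw [hc]
      field_simp
    have key2 : ∀ t : ℝ, b t * (c - b t ^ 2) = 0 := by
      intro t
      have h1 := key t
      rw [hcK] at h1
      have h2 : C * (b t * (c - b t ^ 2)) = 0 := by linear_combination h1
      exact (mul_eq_zero.mp h2).resolve_left hC0
    have k0 := key2 0
    have k1 := key2 1
    have k2 := key2 2
    have k3 := key2 3
    set p := b 0 with hp
    set q := b 1 with hq
    set r := b 2 with hr
    set w := b 3 with hw
    have hpq : p < q := hb (by norm_num)
    have hqr : q < r := hb (by norm_num)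
    have hrw : r < w := hb (by norm_num)
    have f1 : (q - p) * (c - (p ^ 2 + p * q + q ^ 2)) = 0 := by linear_combination k1 - k0
    have f2 : (r - p) * (c - (p ^ 2 + p * r + r ^ 2)) = 0 := by linear_combination k2 - k0
    have f3 : (w - p) * (c - (p ^ 2 + p * w + w ^ 2)) = 0 := by linear_combination k3 - k0
    have g1 := (mul_eq_zero.mp f1).resolve_left (by linarith)
    have g2 := (mul_eq_zero.mp f2).resolve_left (by linarith)
    have g3 := (mul_eq_zero.mp f3).resolve_left (by linarith)
    have f4 : (r - q) * (p + q + r) = 0 := by linear_combination g1 - g2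
    have f5 : (w - q) * (p + q + w) = 0 := by linear_combination g1 - g3
    have g4 := (mul_eq_zero.mp f4).resolve_left (by linarith)
    have g5 := (mul_eq_zero.mp f5).resolve_left (by linarith)
    linarith
  nlinarith [sq_nonneg (A - B), sq_nonneg (A + B), mul_pos hA0 hB0]

end Vale.Agent.P134
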