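import Mathlib

/-!
Allen-Cahn solutions whose level sets are vertical translates of one graph.
-/

open Set Filter Topology

namespace Vale.Agent.P134

variable {m : ℕ}

/-- The Laplacian on `ℝ^m × ℝ`, written in coordinates `(x, t)`. -/
noncomputable def lapXT (u : (Fin m → ℝ) → ℝ → ℝ) (x : Fin m → ℝ) (t : ℝ) : ℝ :=
  (∑ i, fderiv ℝ (fun y => fderiv ℝ (fun z => u z t) y (Pi.single i 1)) x (Pi.single i 1))
    + deriv (deriv (u x)) t

/-- The Allen-Cahn equation on `ℝ^m × ℝ`. -/
def IsAllenCahn (u : (Fin m → ℝ) → ℝ → ℝ) : Prop :=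
  ∀ x t, lapXT u x t = (u x t) ^ 3 - u x t

/-- No bounded strictly increasing `C²` function has `U'' = λ U'`. -/
lemma no_exp {U : ℝ → ℝ} (hU : ContDiff ℝ 2 U) (hmono : ∀ s, 0 < deriv U s)
    (hbd : ∀ s, |U s| ≤ 1) (lam : ℝ) (h : ∀ s, deriv (deriv U) s = lam * deriv U s) : False := by
  have hU1 : Differentiable ℝ U := hU.differentiable (by norm_num)
  have hU2 : Differentiable ℝ (deriv U) := by
    have h2 : ContDiff ℝ (1 + 1) U := by
      have : ((1 : WithTop ℕ∞) + 1) = 2 := by norm_num
      rw [this]; exact hU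
    exact ((contDiff_succ_iff_deriv.1 h2).2.2).differentiable (by norm_num)
  set C := deriv U 0 with hC
  have hCpos : 0 < C := hmono 0
  -- a long interval on which `U' ≥ C`
  have hgrow : ∀ a b : ℝ, a < b → (∀ s ∈ Ioo a b, C ≤ deriv U s) → C * (b - a) ≤ U b - U a := by
    intro a b hab hs
    obtain ⟨c, hc, hc'⟩ := exists_deriv_eq_slope U hab hU1.continuous.continuousOn
      (hU1.differentiableOn)
    have h1 := hs c hc
    rw [hc'] at h1
    have hpos : 0 < b - a := by linarith
    rwa [le_div_iff₀ hpos] at h1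
  have hb : ∀ a b, U b - U a ≤ 2 := by
    intro a b
    have h1 := abs_le.1 (hbd a)
    have h2 := abs_le.1 (hbd b)
    linarith [h1.1, h2.2]
  have hL : 0 < 3 / C := by positivity
  have hfin : C * (3 / C) = 3 := by field_simp
  rcases le_total 0 lam with hl | hl
  · have hmon : Monotone (deriv U) :=
      monotone_of_deriv_nonneg hU2 (fun s => by rw [h s]; exact mul_nonneg hl (hmono s).le)
    have := hgrow 0 (3 / C) hL (fun s hs => hmon hs.1.le)
    have h3 := hb 0 (3 / C)
    rw [sub_zero, hfin] at this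
    linarith
  · have hant : Antitone (deriv U) :=
      antitone_of_deriv_nonpos hU2 (fun s => by rw [h s]; exact mul_nonpos_of_nonpos_of_nonneg hl (hmono s).le)
    have := hgrow (-(3 / C)) 0 (by linarith) (fun s hs => hant hs.2.le)
    have h3 := hb (-(3 / C)) 0
    rw [zero_sub, neg_neg, hfin] at this
    linarith

/-- Partial derivative functions. -/
noncomputable def fi (f : (Fin m → ℝ) → ℝ) (i : Fin m) : (Fin m → ℝ) → ℝ :=
  fun x => fderiv ℝ f x (Pi.single i 1)

lemma fi_contDiff {f : (Fin m → ℝ) → ℝ} {n : WithTop ℕ∞} (hf : ContDiff ℝ (n + 1) f) (i : Fin m) :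
    ContDiff ℝ n (fi f i) := by
  have h1 : ContDiff ℝ n (fderiv ℝ f) := hf.fderiv_right le_rfl
  exact h1.clm_apply contDiff_const

/-- Symmetry of mixed second derivatives in the `fi` form. -/
lemma fi_symm {g : (Fin m → ℝ) → ℝ} (hg : ContDiff ℝ 2 g) (i j : Fin m) (x : Fin m → ℝ) :
    fi (fi g i) j x = fi (fi g j) i x := by
  have hgd : Differentiable ℝ (fderiv ℝ g) := by
    have h1 : ContDiff ℝ 1 (fderiv ℝ g) := hg.fderiv_right (by norm_num)
    exact h1.differentiable (by norm_num)
  have key : ∀ v w : Fin m → ℝ, fderiv ℝ (fun y => fderiv ℝ g y v) x w = fderiv ℝ (fderiv ℝ g) x w v := by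
    intro v w
    have hd : HasFDerivAt (fderiv ℝ g) (fderiv ℝ (fderiv ℝ g) x) x := (hgd x).hasFDerivAt
    have h2 := hd.clm_apply (hasFDerivAt_const v x)
    rw [h2.fderiv]
    simp
  have hs := (hg.contDiffAt (x := x)).isSymmSndFDerivAt (by simp)
  unfold fi
  rw [key, key]
  exact hs _ _

lemma clm_ext {A : (Fin m → ℝ) →L[ℝ] ℝ} (h : ∀ i, A (Pi.single i 1) = 0) : A = 0 := by
  apply ContinuousLinearMap.coe_injective
  apply LinearMap.pi_ext
  intro i t
  have : (Pi.single i t : Fin m → ℝ) = t • Pi.single i 1 := by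
    rw [← Pi.single_smul]; simp
  simp only [ContinuousLinearMap.coe_coe, ContinuousLinearMap.coe_zero, LinearMap.zero_apply]
  rw [this, map_smul, h i, smul_zero]

/-- Constant squared gradient length and constant Laplacian force a vanishing Hessian
(Bochner's formula in coordinates). -/
lemma bochner {f : (Fin m → ℝ) → ℝ} (hf : ContDiff ℝ 3 f) (g₀ l₀ : ℝ)
    (hG : ∀ x, ∑ i, fi f i x ^ 2 = g₀) (hL : ∀ x, ∑ j, fi (fi f j) j x = l₀) (i j : Fin m)
    (x : Fin m → ℝ) : fi (fi f i) j x = 0 := by
  have hf2 : ContDiff ℝ 2 f := hf.of_le (by norm_num)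
  have hf3 : ContDiff ℝ (2 + 1) f := by
    have : ((2 : WithTop ℕ∞) + 1) = 3 := by norm_num
    rw [this]; exact hf
  have hfi2 : ∀ i, ContDiff ℝ 2 (fi f i) := fun i => fi_contDiff (n := 2) hf3 i
  have hfi1 : ∀ i, Differentiable ℝ (fi f i) :=
    fun i => (hfi2 i).differentiable (by norm_num)
  have hfij1 : ∀ i j, ContDiff ℝ 1 (fi (fi f i) j) :=
    fun i j => fi_contDiff (n := 1) (by
      have : ((1 : WithTop ℕ∞) + 1) = 2 := by norm_num
      rw [this]; exact hfi2 i) j
  have hfijd : ∀ i j, Differentiable ℝ (fi (fi f i) j) :=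
    fun i j => (hfij1 i j).differentiable (by norm_num)
  -- first derivative of the gradient length
  have hA : ∀ j y, ∑ i, fi f i y * fi (fi f i) j y = 0 := by
    intro j y
    have h1 : HasFDerivAt (fun z => ∑ i, fi f i z ^ 2)
        (∑ i, (2 * fi f i y) • fderiv ℝ (fi f i) y) y := by
      apply HasFDerivAt.fun_sum
      intro i _
      have := ((hfi1 i y).hasFDerivAt.pow 2)
      simpa using this
    have h2 : (fun z => ∑ i, fi f i z ^ 2) = fun _ => g₀ := funext hG
    rw [h2] at h1
    have h3 := h1.unique (hasFDerivAt_const g₀ y)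
    have h4 := congrArg (fun A : (Fin m → ℝ) →L[ℝ] ℝ => A (Pi.single j 1)) h3
    simp only [ContinuousLinearMap.sum_apply, ContinuousLinearMap.smul_apply, smul_eq_mul,
      ContinuousLinearMap.zero_apply] at h4
    have h5 : ∑ i, (2 * fi f i y) * fderiv ℝ (fi f i) y (Pi.single j 1)
        = 2 * ∑ i, fi f i y * fi (fi f i) j y := by
      rw [Finset.mul_sum]
      refine Finset.sum_congr rfl (fun i _ => ?_)
      unfold fi
      ring
    rw [h5] at h4
    linarith
  -- second derivative
  have hB : ∀ j, ∑ i, (fi (fi f i) j x * fi (fi f i) j x + fi f i x * fi (fi (fi f i) j) j x) = 0 := by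
    intro j
    have h1 : HasFDerivAt (fun z => ∑ i, fi f i z * fi (fi f i) j z)
        (∑ i, (fi f i x • fderiv ℝ (fi (fi f i) j) x + fi (fi f i) j x • fderiv ℝ (fi f i) x)) x := by
      apply HasFDerivAt.fun_sum
      intro i _
      exact (hfi1 i x).hasFDerivAt.mul (hfijd i j x).hasFDerivAt
    have h2 : (fun z => ∑ i, fi f i z * fi (fi f i) j z) = fun _ => (0 : ℝ) := funext (hA j)
    rw [h2] at h1
    have h3 := h1.unique (hasFDerivAt_const (0 : ℝ) x)
    have h4 := congrArg (fun A : (Fin m → ℝ) →L[ℝ] ℝ => A (Pi.single j 1)) h3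
    simp only [ContinuousLinearMap.sum_apply, ContinuousLinearMap.add_apply,
      ContinuousLinearMap.smul_apply, smul_eq_mul, ContinuousLinearMap.zero_apply] at h4
    rw [← h4]
    refine Finset.sum_congr rfl (fun i _ => ?_)
    unfold fi
    ring
  -- commuting third derivatives
  have hC : ∀ i j, fi (fi (fi f i) j) j x = fi (fi (fi f j) j) i x := by
    intro i j
    have h1 : fi (fi f i) j = fi (fi f j) i := funext (fi_symm hf2 i j)
    rw [h1]
    exact fi_symm (hfi2 j) i j x
  -- derivative of the Laplacian vanishes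
  have hD : ∀ i, ∑ j, fi (fi (fi f j) j) i x = 0 := by
    intro i
    have h1 : HasFDerivAt (fun z => ∑ j, fi (fi f j) j z)
        (∑ j, fderiv ℝ (fi (fi f j) j) x) x := by
      apply HasFDerivAt.fun_sum
      intro j _
      exact (hfijd j j x).hasFDerivAt
    have h2 : (fun z => ∑ j, fi (fi f j) j z) = fun _ => l₀ := funext hL
    rw [h2] at h1
    have h3 := h1.unique (hasFDerivAt_const l₀ x)
    have h4 := congrArg (fun A : (Fin m → ℝ) →L[ℝ] ℝ => A (Pi.single i 1)) h3
    simp only [ContinuousLinearMap.sum_apply, ContinuousLinearMap.zero_apply] at h4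
    exact h4
  -- sum of squares
  have hsum : ∑ j, ∑ i, fi (fi f i) j x ^ 2 = 0 := by
    have h1 : ∑ j, ∑ i, (fi (fi f i) j x * fi (fi f i) j x + fi f i x * fi (fi (fi f i) j) j x) = 0 :=
      Finset.sum_eq_zero (fun j _ => hB j)
    simp only [Finset.sum_add_distrib] at h1
    have h2 : ∑ j, ∑ i, fi f i x * fi (fi (fi f i) j) j x = 0 := by
      rw [Finset.sum_comm]
      refine Finset.sum_eq_zero (fun i _ => ?_)
      rw [← Finset.mul_sum]
      have : ∑ j, fi (fi (fi f i) j) j x = ∑ j, fi (fi (fi f j) j) i x :=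
        Finset.sum_congr rfl (fun j _ => hC i j)
      rw [this, hD i, mul_zero]
    rw [h2, add_zero] at h1
    rw [← h1]
    refine Finset.sum_congr rfl (fun j _ => Finset.sum_congr rfl (fun i _ => ?_))
    ring
  have h1 := (Finset.sum_eq_zero_iff_of_nonneg
    (fun j _ => Finset.sum_nonneg (fun i _ => sq_nonneg (fi (fi f i) j x)))).1 hsum j (Finset.mem_univ j)
  have h2 := (Finset.sum_eq_zero_iff_of_nonneg (fun i _ => sq_nonneg (fi (fi f i) j x))).1 h1 i
    (Finset.mem_univ i)
  exact pow_eq_zero_iff (two_ne_zero) |>.1 h2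

/-- Vanishing Hessian means affine. -/
lemma affine_of_hess {f : (Fin m → ℝ) → ℝ} (hf : ContDiff ℝ 3 f)
    (hH : ∀ i j x, fi (fi f i) j x = 0) :
    ∃ (b : Fin m → ℝ) (f₀ : ℝ), ∀ x, f x = f₀ + ∑ i, b i * x i := by
  have hf3 : ContDiff ℝ (2 + 1) f := by
    have : ((2 : WithTop ℕ∞) + 1) = 3 := by norm_num
    rw [this]; exact hf
  have hfi1 : ∀ i, Differentiable ℝ (fi f i) :=
    fun i => (fi_contDiff (n := 2) hf3 i).differentiable (by norm_num)
  have hfd : Differentiable ℝ f := hf.differentiable (by norm_num)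
  have hconst : ∀ i x, fi f i x = fi f i 0 := by
    intro i x
    refine is_const_of_fderiv_eq_zero (hfi1 i) (fun y => clm_ext (fun j => hH i j y)) x 0
  refine ⟨fun i => fi f i 0, f 0, fun x => ?_⟩
  set g : (Fin m → ℝ) → ℝ := fun y => f y - ∑ i, fi f i 0 * y i with hg
  have hgd : ∀ y, HasFDerivAt g (fderiv ℝ f y - ∑ i, fi f i 0 • (ContinuousLinearMap.proj i : (Fin m → ℝ) →L[ℝ] ℝ)) y := by
    intro y
    refine (hfd y).hasFDerivAt.sub ?_
    apply HasFDerivAt.fun_sum
    intro i _
    have hp : HasFDerivAt (fun x : Fin m → ℝ => x i) (ContinuousLinearMap.proj i : (Fin m → ℝ) →L[ℝ] ℝ) y :=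
      (ContinuousLinearMap.proj i : (Fin m → ℝ) →L[ℝ] ℝ).hasFDerivAt
    exact hp.const_mul _
  have hg0 : ∀ y, fderiv ℝ g y = 0 := by
    intro y
    rw [(hgd y).fderiv]
    apply clm_ext
    intro j
    have h1 : fderiv ℝ f y (Pi.single j 1) = fi f j 0 := hconst j y
    simp only [ContinuousLinearMap.sub_apply, ContinuousLinearMap.sum_apply,
      ContinuousLinearMap.smul_apply, smul_eq_mul, ContinuousLinearMap.proj_apply, h1]
    simp [Pi.single_apply]
  have hgdiff : Differentiable ℝ g := fun y => (hgd y).differentiableAt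
  have := is_const_of_fderiv_eq_zero hgdiff hg0 x 0
  simp only [hg, Pi.zero_apply, mul_zero, Finset.sum_const_zero, sub_zero] at this
  linarith

/-- The Laplacian of `U(t + f x)`. -/
lemma lap_formula {U : ℝ → ℝ} {f : (Fin m → ℝ) → ℝ} (hU : ContDiff ℝ 2 U) (hf : ContDiff ℝ 3 f)
    (x : Fin m → ℝ) (t : ℝ) :
    lapXT (fun x t => U (t + f x)) x t =
      deriv (deriv U) (t + f x) * (∑ i, fi f i x ^ 2 + 1) +
        deriv U (t + f x) * ∑ i, fi (fi f i) i x := by
  have hU1 : Differentiable ℝ U := hU.differentiable (by norm_num)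
  have hU2 : Differentiable ℝ (deriv U) := by
    have h2 : ContDiff ℝ (1 + 1) U := by
      have : ((1 : WithTop ℕ∞) + 1) = 2 := by norm_num
      rw [this]; exact hU
    exact ((contDiff_succ_iff_deriv.1 h2).2.2).differentiable (by norm_num)
  have hfd : Differentiable ℝ f := hf.differentiable (by norm_num)
  have hf3 : ContDiff ℝ (2 + 1) f := by
    have : ((2 : WithTop ℕ∞) + 1) = 3 := by norm_num
    rw [this]; exact hf
  have hfi1 : ∀ i, Differentiable ℝ (fi f i) :=
    fun i => (fi_contDiff (n := 2) hf3 i).differentiable (by norm_num)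
  unfold lapXT
  have hstep1 : ∀ i, (fun y => fderiv ℝ (fun z => U (t + f z)) y (Pi.single i 1))
      = fun y => deriv U (t + f y) * fi f i y := by
    intro i
    funext y
    have h1 : HasFDerivAt (fun z => U (t + f z)) (deriv U (t + f y) • fderiv ℝ f y) y :=
      HasDerivAt.comp_hasFDerivAt y (hU1 (t + f y)).hasDerivAt ((hfd y).hasFDerivAt.const_add t)
    rw [h1.fderiv]
    simp [fi]
  have hstep2 : ∀ i, fderiv ℝ (fun y => deriv U (t + f y) * fi f i y) x (Pi.single i 1)
      = deriv (deriv U) (t + f x) * fi f i x ^ 2 + deriv U (t + f x) * fi (fi f i) i x := by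
    intro i
    have h0 : HasDerivAt (deriv U) (deriv (deriv U) (t + f x)) (t + f x) := (hU2 _).hasDerivAt
    have h1' := HasDerivAt.comp_hasFDerivAt x h0 ((hfd x).hasFDerivAt.const_add t)
    have h1 : HasFDerivAt (fun z => deriv U (t + f z)) (deriv (deriv U) (t + f x) • fderiv ℝ f x) x := h1'
    have h2 : HasFDerivAt (fun y => deriv U (t + f y) * fi f i y)
        (deriv U (t + f x) • fderiv ℝ (fi f i) x + fi f i x • (deriv (deriv U) (t + f x) • fderiv ℝ f x)) x :=
      h1.mul (hfi1 i x).hasFDerivAt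
    rw [h2.fderiv]
    simp only [ContinuousLinearMap.add_apply, ContinuousLinearMap.smul_apply, smul_eq_mul]
    unfold fi
    ring
  have hstep3 : deriv (deriv (fun r => U (r + f x))) t = deriv (deriv U) (t + f x) := by
    have h1 : deriv (fun r => U (r + f x)) = fun r => deriv U (r + f x) := by
      funext r
      exact deriv_comp_add_const U (f x) r
    rw [h1]
    exact deriv_comp_add_const (deriv U) (f x) t
  simp only [hstep1, hstep2, hstep3]
  rw [Finset.sum_add_distrib, ← Finset.mul_sum, ← Finset.mul_sum]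
  ring

/-- Solutions `u(x,t) = U(t + f x)` of Allen-Cahn with `|u| ≤ 1`, `∂_t u > 0` have affine `f`. -/
theorem translate_affine {U : ℝ → ℝ} {f : (Fin m → ℝ) → ℝ} (hU : ContDiff ℝ 2 U)
    (hf : ContDiff ℝ 3 f) (hmono : ∀ s, 0 < deriv U s) (hbd : ∀ s, |U s| ≤ 1)
    (hAC : IsAllenCahn (fun x t => U (t + f x))) :
    ∃ (b : Fin m → ℝ) (f₀ : ℝ), ∀ x, f x = f₀ + ∑ i, b i * x i := by
  set G : (Fin m → ℝ) → ℝ := fun x => ∑ i, fi f i x ^ 2 with hG
  set L : (Fin m → ℝ) → ℝ := fun x => ∑ i, fi (fi f i) i x with hL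
  have heq : ∀ x s, deriv (deriv U) s * (G x + 1) + deriv U s * L x = U s ^ 3 - U s := by
    intro x s
    have h1 := hAC x (s - f x)
    rw [lap_formula hU hf] at h1
    simpa using h1
  have hdiff : ∀ x y s, deriv (deriv U) s * (G x - G y) + deriv U s * (L x - L y) = 0 := by
    intro x y s
    have h1 := heq x s
    have h2 := heq y s
    linarith
  have hGconst : ∀ x y, G x = G y := by
    intro x y
    by_contra hne
    have hne' : G x - G y ≠ 0 := sub_ne_zero.2 hne
    apply no_exp hU hmono hbd (-(L x - L y) / (G x - G y))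
    intro s
    have := hdiff x y s
    field_simp
    linarith
  have hLconst : ∀ x y, L x = L y := by
    intro x y
    have h1 := hdiff x y 0
    rw [hGconst x y, sub_self, mul_zero, zero_add] at h1
    rcases mul_eq_zero.1 h1 with h2 | h2
    · exact absurd h2 (hmono 0).ne'
    · linarith
  apply affine_of_hess hf
  intro i j x
  exact bochner hf (G 0) (L 0) (fun y => hGconst y 0) (fun y => hLconst y 0) i j x

end Vale.Agent.P134
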